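import Vale.Agent.P088.H198.Defs

/-!
# P088, row A4: shifted coefficients are controlled by the unshifted ones
-/

open MeasureTheory Set
open scoped ContDiff Matrix

noncomputable section

namespace Vale.Agent.P088.H884

open Vale.Agent.P088.LR

variable {n : ℕ}

/-- The centre of the cube. -/
def ctr (n : ℕ) : V n := fun _ => 1 / 2

theorem core_eq (n : ℕ) : core n = Metric.closedBall (ctr n) (1 / 4) := by
  ext x
  rw [closedBall_pi _ (by norm_num)]
  simp only [core, mem_univ_pi, ctr, Real.closedBall_eq_Icc, mem_Icc]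
  refine forall_congr' fun j => ?_
  constructor
  · rintro ⟨h1, h2⟩
    constructor <;> linarith
  · rintro ⟨h1, h2⟩
    constructor <;> linarith

theorem isClosed_core (n : ℕ) : IsClosed (core n) := by
  rw [core_eq]
  exact Metric.isClosed_closedBall

theorem core_subset_cube (n : ℕ) : core n ⊆ cube n := fun x hx j =>
  ⟨by linarith [(hx j).1], by linarith [(hx j).2]⟩

theorem ball_subset_cube (n : ℕ) : Metric.closedBall (ctr n) (3 / 8) ⊆ cube n := by
  intro x hx
  rw [closedBall_pi _ (by norm_num)] at hx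
  simp only [mem_univ_pi, ctr, Real.closedBall_eq_Icc, mem_Icc] at hx
  intro j
  have := hx j
  constructor <;> linarith [this.1, this.2]

theorem exists_chi (n : ℕ) : ∃ χ : V n → ℂ, ContDiff ℝ ∞ χ ∧ (∀ x ∈ core n, χ x = 1) ∧
    tsupport χ ⊆ cube n ∧ HasCompactSupport χ := by
  let f : ContDiffBump (ctr n) := ⟨1 / 4, 3 / 8, by norm_num, by norm_num⟩
  have hsub : Function.support (fun x => ((f x : ℝ) : ℂ)) ⊆ Function.support f := by
    intro x hx hx0
    exact hx (by simp [hx0])
  have hts : tsupport (fun x => ((f x : ℝ) : ℂ)) ⊆ tsupport f := closure_mono hsub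
  refine ⟨fun x => ((f x : ℝ) : ℂ), ?_, ?_, ?_, ?_⟩
  · exact Complex.ofRealCLM.contDiff.comp f.contDiff
  · intro x hx
    rw [core_eq] at hx
    have : f x = 1 := f.one_of_mem_closedBall hx
    simp [this]
  · refine hts.trans ?_
    rw [f.tsupport_eq]
    exact ball_subset_cube n
  · exact f.hasCompactSupport.mono' (hts.trans' subset_closure)

theorem exists_cl {k : ℕ} {f : V n → ℂ} (hf : ContDiff ℝ ∞ f) (hc : HasCompactSupport f) :
    ∃ B : ℝ, 0 < B ∧ Cl k B f := by
  have h : ∀ l : ℕ, ∃ C, ∀ x, ‖iteratedFDeriv ℝ l f x‖ ≤ C := fun l =>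
    (hf.continuous_iteratedFDeriv (by exact_mod_cast le_top)).bounded_above_of_compact_support
      (hc.iteratedFDeriv l)
  choose C hC using h
  refine ⟨1 + ∑ l ∈ Finset.range (k + 1), |C l|, by positivity, fun l hl x => ?_⟩
  calc ‖iteratedFDeriv ℝ l f x‖ ≤ C l := hC l x
    _ ≤ |C l| := le_abs_self _
    _ ≤ ∑ l ∈ Finset.range (k + 1), |C l| :=
      Finset.single_le_sum (f := fun l => |C l|) (fun i _ => abs_nonneg _)
        (Finset.mem_range.mpr (by omega))
    _ ≤ _ := by linarith

theorem ex_mul (ξ η x : V n) : ex ξ x * ex η x = ex (ξ + η) x := by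
  unfold ex
  rw [← Complex.exp_add]
  congr 1
  rw [← mul_add, ← Complex.ofReal_add, ← Finset.sum_add_distrib]
  congr 2
  exact Finset.sum_congr rfl fun j _ => by rw [Pi.add_apply, add_mul]

theorem norm_ex (ξ x : V n) : ‖ex ξ x‖ = 1 := by
  unfold ex
  rw [show (2 * Real.pi * Complex.I * ((∑ j, ξ j * x j : ℝ) : ℂ)) =
    ((2 * Real.pi * ∑ j, ξ j * x j : ℝ) : ℂ) * Complex.I by push_cast; ring]
  exact Complex.norm_exp_ofReal_mul_I _

theorem continuous_ex (ξ : V n) : Continuous (ex ξ) := by
  unfold ex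
  refine Complex.continuous_exp.comp (continuous_const.mul (Complex.continuous_ofReal.comp ?_))
  exact continuous_finsetSum _ fun j _ => continuous_const.mul (continuous_apply j)

/-- The shifted coefficients of a function on the core are a convolution of the unshifted ones. -/
theorem cf_eq_cv {f χ : V n → ℂ} (hf : Continuous f) (hf0 : ∀ x ∉ core n, f x = 0)
    (hfc : HasCompactSupport f) (hχ : ∀ x ∈ core n, χ x = 1) {θ : V n} {d : Ix n → ℂ}
    (hd : Summable fun k => ‖d k‖) (hexp : ∀ x ∈ core n, χ x = Es θ d x) (k : Ix n) :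
    cf θ f k = cv (cf 0 f) d k := by
  have hfi : Integrable f := hf.integrable_of_hasCompactSupport hfc
  set F : Ix n → V n → ℂ := fun l x => f x * (d l * ex (-(fr 0 (k - l))) x) with hF
  have hFn : ∀ l x, ‖F l x‖ = ‖f x‖ * ‖d l‖ := fun l x => by
    rw [hF]; simp [norm_ex]
  have hFi : ∀ l, Integrable (F l) := fun l => by
    have : F l = fun x => (d l * ex (-(fr 0 (k - l))) x) * f x := by
      funext x; simp only [hF]; ring
    rw [this]
    refine hfi.bdd_mul (c := ‖d l‖) ?_ ?_
    · exact (continuous_const.mul (continuous_ex _)).aestronglyMeasurable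
    · exact Filter.Eventually.of_forall fun x => by simp [norm_ex]
  have hFs : Summable fun l => ∫ x, ‖F l x‖ := by
    simp only [hFn, integral_mul_const]
    exact hd.mul_left _
  have h1 : ∑' l, ∫ x, F l x = ∫ x, ∑' l, F l x :=
    integral_tsum_of_summable_integral_norm hFi hFs
  have h2 : ∀ l, ∫ x, F l x = cf 0 f (k - l) * d l := fun l => by
    simp only [hF, cf, ft]
    rw [← integral_mul_const]
    refine integral_congr_ae (Filter.Eventually.of_forall fun x => ?_)
    simp only
    ring
  have h3 : ∀ x, ∑' l, F l x = f x * ex (-(fr θ k)) x := fun x => by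
    by_cases hx : x ∈ core n
    · have e1 : ∀ l, F l x = (f x * ex (-(fr θ k)) x) * (d l * ex (fr θ l) x) := fun l => by
        have : ex (-(fr 0 (k - l))) x = ex (fr θ l) x * ex (-(fr θ k)) x := by
          rw [ex_mul]
          congr 1
          funext j
          simp [fr]
          ring
        simp only [hF, this]
        ring
      have e2 : Es θ d x = 1 := by rw [← hexp x hx, hχ x hx]
      simp only [e1, tsum_mul_left]
      rw [show ∑' l, d l * ex (fr θ l) x = Es θ d x from rfl, e2, mul_one]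
    · simp [hF, hf0 x hx]
  calc cf θ f k = ∫ x, f x * ex (-(fr θ k)) x := rfl
    _ = ∫ x, ∑' l, F l x := by simp only [h3]
    _ = ∑' l, ∫ x, F l x := h1.symm
    _ = cv (cf 0 f) d k := by simp only [h2, cv]

theorem a4 (A2 : RowA2) (A3 : RowA3) : RowA4 := by
  intro n
  obtain ⟨C, hC, h3⟩ := A3 n 0
  obtain ⟨χ, hχs, hχ1, hχt, hχc⟩ := exists_chi n
  obtain ⟨B, hB, hχB⟩ := exists_cl (k := 0 + n + 1) hχs hχc
  refine ⟨C * B, by positivity, fun f hf hf0 θ hθ => ?_⟩
  have hft : tsupport f ⊆ core n := by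
    refine closure_minimal (fun x hx => ?_) (isClosed_core n)
    by_contra h
    exact hx (hf0 x h)
  have hfc : HasCompactSupport f := by
    refine HasCompactSupport.intro (K := core n) ?_ fun x hx => hf0 x hx
    rw [core_eq]
    exact isCompact_closedBall _ _
  obtain ⟨hd, hexp, hbd⟩ := h3 χ hχs hχt θ hθ
  obtain ⟨hc, -, -⟩ := h3 f hf (hft.trans (core_subset_cube n)) 0 (by simp)
  have hds : Summable fun k => ‖cf θ χ k‖ := by simpa using hd 0
  have e : cf θ f = cv (cf 0 f) (cf θ χ) := by
    funext k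
    exact cf_eq_cv hf.continuous hf0 hfc hχ1 hds
      (fun x hx => hexp x (core_subset_cube n hx)) k
  obtain ⟨-, -, -, hnm⟩ := A2 0 θ (cf 0 f) (cf θ χ) hc hd
  rw [e]
  have h0 : 0 ≤ nm 0 (cf 0 f) := tsum_nonneg fun k => by
    simp only [pow_zero, one_mul]; positivity
  calc nm 0 (cv (cf 0 f) (cf θ χ)) ≤ nm 0 (cf 0 f) * nm 0 (cf θ χ) := hnm 0
    _ ≤ nm 0 (cf 0 f) * (C * B) := mul_le_mul_of_nonneg_left (hbd B hχB) h0
    _ = C * B * nm 0 (cf 0 f) := by ring

end Vale.Agent.P088.H884
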