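import Vale.Agent.P088.H198.Defs

/-!
# P088, row STAR: equal Dirichlet-to-Neumann forms give the orthogonality identity
-/

open MeasureTheory Set
open scoped ContDiff Matrix

namespace Vale.Agent.P088.H884

open Vale.Agent.P088.LR

variable {n : ℕ}

theorem pd_continuous {u : V n → ℂ} (hu : ContDiff ℝ ∞ u) (i : Fin n) :
    Continuous (pd i u) := by
  unfold pd
  exact (hu.continuous_fderiv (by simp)).clm_apply continuous_const

theorem pd_sub {u v : V n → ℂ} (hu : ContDiff ℝ ∞ u) (hv : ContDiff ℝ ∞ v) (i : Fin n) (x : V n) :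
    pd i (fun y => u y - v y) x = pd i u x - pd i v x := by
  unfold pd
  rw [fderiv_fun_sub (hu.differentiable (by simp) x) (hv.differentiable (by simp) x)]
  rfl

theorem bl_integrable {Ω : Set (V n)} (hb : Bornology.IsBounded Ω) {s : MF n}
    (hs : ∀ i j, Continuous fun x => s x i j) {u v : V n → ℂ} (hu : ContDiff ℝ ∞ u)
    (hv : ContDiff ℝ ∞ v) :
    IntegrableOn (fun x => ∑ i, ∑ j, (s x i j : ℂ) * pd i u x * pd j v x) Ω := by
  have hc : Continuous fun x => ∑ i, ∑ j, (s x i j : ℂ) * pd i u x * pd j v x := by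
    refine continuous_finsetSum _ fun i _ => continuous_finsetSum _ fun j _ => ?_
    exact ((Complex.continuous_ofReal.comp (hs i j)).mul (pd_continuous hu i)).mul
      (pd_continuous hv j)
  exact (hc.continuousOn.integrableOn_compact hb.isCompact_closure).mono_set subset_closure

theorem bl_sub_right {Ω : Set (V n)} (hb : Bornology.IsBounded Ω) {s : MF n}
    (hs : ∀ i j, Continuous fun x => s x i j) {u v v' : V n → ℂ} (hu : ContDiff ℝ ∞ u)
    (hv : ContDiff ℝ ∞ v) (hv' : ContDiff ℝ ∞ v') :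
    bl Ω s u (fun y => v y - v' y) = bl Ω s u v - bl Ω s u v' := by
  unfold bl
  rw [← integral_sub (bl_integrable hb hs hu hv) (bl_integrable hb hs hu hv')]
  refine integral_congr_ae (Filter.Eventually.of_forall fun x => ?_)
  simp only [pd_sub hv hv', mul_sub, Finset.sum_sub_distrib]

theorem bl_sub_left {Ω : Set (V n)} (hb : Bornology.IsBounded Ω) {s : MF n}
    (hs : ∀ i j, Continuous fun x => s x i j) {u u' v : V n → ℂ} (hu : ContDiff ℝ ∞ u)
    (hu' : ContDiff ℝ ∞ u') (hv : ContDiff ℝ ∞ v) :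
    bl Ω s (fun y => u y - u' y) v = bl Ω s u v - bl Ω s u' v := by
  unfold bl
  rw [← integral_sub (bl_integrable hb hs hu hv) (bl_integrable hb hs hu' hv)]
  refine integral_congr_ae (Filter.Eventually.of_forall fun x => ?_)
  simp only [pd_sub hu hu', mul_sub, sub_mul, Finset.sum_sub_distrib]

theorem bl_comm (Ω : Set (V n)) {s : MF n} (hs : ∀ x, (s x).IsSymm) (u v : V n → ℂ) :
    bl Ω s u v = bl Ω s v u := by
  unfold bl
  refine integral_congr_ae (Filter.Eventually.of_forall fun x => ?_)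
  simp only
  rw [Finset.sum_comm]
  refine Finset.sum_congr rfl fun j _ => Finset.sum_congr rfl fun i _ => ?_
  rw [(hs x).apply j i]
  ring

theorem bl_sub_mat {Ω : Set (V n)} (hb : Bornology.IsBounded Ω) {s t : MF n}
    (hs : ∀ i j, Continuous fun x => s x i j) (ht : ∀ i j, Continuous fun x => t x i j)
    {u v : V n → ℂ} (hu : ContDiff ℝ ∞ u) (hv : ContDiff ℝ ∞ v) :
    bl Ω (fun x => s x - t x) u v = bl Ω s u v - bl Ω t u v := by
  unfold bl
  rw [← integral_sub (bl_integrable hb hs hu hv) (bl_integrable hb ht hu hv)]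
  refine integral_congr_ae (Filter.Eventually.of_forall fun x => ?_)
  simp only [Matrix.sub_apply, Complex.ofReal_sub, sub_mul, Finset.sum_sub_distrib]

theorem star (weak : RowWEAK) : RowSTAR := by
  intro n Ω hO hb s hs hsym hSD U W hU hW hU0 hW0
  have hsc : ∀ i j, Continuous fun x => s x i j := fun i j => (hs i j).continuous
  have h1m : SmM (fun _ : V n => (1 : Matrix (Fin n) (Fin n) ℝ)) := fun i j => contDiff_const
  have h1c : ∀ i j, Continuous fun _ : V n => (1 : Matrix (Fin n) (Fin n) ℝ) i j :=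
    fun i j => continuous_const
  have h1s : ∀ _ : V n, (1 : Matrix (Fin n) (Fin n) ℝ).IsSymm := fun _ => Matrix.isSymm_one
  obtain ⟨u, v, u', v', hu, hv, hu', hv', heq⟩ := hSD U W hU hW
  have e1 : bl Ω (fun _ => 1) u v = bl Ω (fun _ => 1) U W := by
    have a : bl Ω (fun _ => 1) (fun y => u y - U y) v = 0 := by
      rw [bl_comm Ω h1s]
      exact hv.2.2 _ (hu.1.sub hU) fun x hx => by rw [hu.2.1 x hx, sub_self]
    have b : bl Ω (fun _ => 1) U (fun y => v y - W y) = 0 :=
      weak Ω hO hb _ h1m h1s U _ hU (hv.1.sub hW) hU0 fun x hx => by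
        rw [hv.2.1 x hx, sub_self]
    rw [bl_sub_left hb h1c hu.1 hU hv.1] at a
    rw [bl_sub_right hb h1c hU hv.1 hW] at b
    rw [sub_eq_zero.mp a, sub_eq_zero.mp b]
  have e2 : bl Ω s u' v' = bl Ω s U W := by
    have a : bl Ω s u' (fun y => v' y - W y) = 0 :=
      hu'.2.2 _ (hv'.1.sub hW) fun x hx => by rw [hv'.2.1 x hx, sub_self]
    have b : bl Ω s (fun y => u' y - U y) W = 0 := by
      rw [bl_comm Ω hsym]
      exact weak Ω hO hb s hs hsym W _ hW (hu'.1.sub hU) hW0 fun x hx => by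
        rw [hu'.2.1 x hx, sub_self]
    rw [bl_sub_right hb hsc hu'.1 hv'.1 hW] at a
    rw [bl_sub_left hb hsc hu'.1 hU hW] at b
    rw [sub_eq_zero.mp a, sub_eq_zero.mp b]
  rw [bl_sub_mat hb hsc h1c hU hW, ← e1, ← e2, heq, sub_self]

end Vale.Agent.P088.H884
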