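import Vale.Agent.P088.H198.Defs

/-!
# P088, row ISO: the push-forward of the density is the identity, so the metric is a pull-back
-/

open MeasureTheory Set
open scoped ContDiff Matrix

namespace Vale.Agent.P088.H884

open Vale.Agent.P088.LR

theorem iso_mat {m : ℕ} (J G : Matrix (Fin (m + 3)) (Fin (m + 3)) ℝ) (hJ : 0 < J.det)
    (hG : 0 < G.det) (h : J.det⁻¹ • (J * (√G.det • G⁻¹) * Jᵀ) = 1) : G = Jᵀ * J := by
  have hr : 0 < √G.det := Real.sqrt_pos.mpr hG
  have hr2 : √G.det * √G.det = G.det := Real.mul_self_sqrt hG.le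
  have h1 : √G.det • (J * G⁻¹ * Jᵀ) = J.det • (1 : Matrix (Fin (m + 3)) (Fin (m + 3)) ℝ) := by
    rw [← h, smul_smul, mul_inv_cancel₀ hJ.ne', one_smul, Matrix.mul_smul, Matrix.smul_mul]
  have h2 := congrArg Matrix.det h1
  rw [Matrix.det_smul, Matrix.det_smul, Matrix.det_mul, Matrix.det_mul, Matrix.det_transpose,
    Matrix.det_one, Matrix.det_nonsing_inv, Ring.inverse_eq_inv', Fintype.card_fin, mul_one] at h2
  have h3 : (√G.det) ^ (m + 1) = J.det ^ (m + 1) := by
    have h4 : (√G.det) ^ (m + 3) * (J.det * J.det) = J.det ^ (m + 3) * G.det := by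
      have h2' : (√G.det ^ (m + 3) * (J.det * G.det⁻¹ * J.det)) * G.det = J.det ^ (m + 3) * G.det := by
        rw [h2]
      rw [← h2']
      field_simp
    have h5 : ((√G.det) ^ (m + 1) - J.det ^ (m + 1)) * (G.det * (J.det * J.det)) = 0 := by
      have e1 : (√G.det) ^ (m + 3) = (√G.det) ^ (m + 1) * G.det := by
        have : (√G.det) ^ (m + 3) = (√G.det) ^ (m + 1) * (√G.det * √G.det) := by ring
        rw [this, hr2]
      have e2 : J.det ^ (m + 3) = J.det ^ (m + 1) * (J.det * J.det) := by ring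
      rw [e1, e2] at h4
      linear_combination h4
    have h6 : G.det * (J.det * J.det) ≠ 0 := by positivity
    have := (mul_eq_zero.mp h5).resolve_right h6
    linarith
  have h7 : √G.det = J.det := (pow_left_inj₀ hr.le hJ.le (Nat.succ_ne_zero m)).mp h3
  rw [h7] at h1
  have h8 : J * G⁻¹ * Jᵀ = 1 := by
    have := congrArg (fun M => J.det⁻¹ • M) h1
    simpa [smul_smul, inv_mul_cancel₀ hJ.ne'] using this
  have h9 : Jᵀ * (J * G⁻¹) = 1 := mul_eq_one_comm.mp h8
  have hu : IsUnit G.det := isUnit_iff_ne_zero.mpr hG.ne'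
  calc G = 1 * G := (one_mul G).symm
    _ = Jᵀ * (J * G⁻¹) * G := by rw [h9]
    _ = Jᵀ * J * (G⁻¹ * G) := by simp only [Matrix.mul_assoc]
    _ = Jᵀ * J := by rw [Matrix.nonsing_inv_mul G hu, mul_one]

theorem iso : RowISO := by
  intro n hn Ω g _ hpos w K hD hpsh x
  obtain ⟨m, rfl⟩ : ∃ m, n = m + 3 := ⟨n - 3, by omega⟩
  have h := hpsh (x + w x)
  unfold psh at h
  rw [hD.l x] at h
  exact iso_mat (jm w x) (g x) (hD.dp x) (hpos x).det_pos h

end Vale.Agent.P088.H884
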