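import Vale.Agent.P088.H198.Defs3
import Vale.Agent.P088.H884.Star
import Vale.Agent.P088.H757.Weak

/-!
# P088, row SP: equal Dirichlet-to-Neumann forms of `s₁` and `s` give the orthogonality identity
-/

open MeasureTheory Set
open scoped ContDiff Matrix

namespace Vale.Agent.P088.H884

open Vale.Agent.P088.LR

theorem starP : RowSP := by
  intro n Ω hO hb s₁ s hs₁ hs hsym₁ hsym hSD U W hU hW hU0 hW0
  have hsc : ∀ i j, Continuous fun x => s x i j := fun i j => (hs i j).continuous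
  have h1c : ∀ i j, Continuous fun x => s₁ x i j := fun i j => (hs₁ i j).continuous
  obtain ⟨u, v, u', v', hu, hv, hu', hv', heq⟩ := hSD U W hU hW
  have e1 : bl Ω s₁ u v = bl Ω s₁ U W := by
    have a : bl Ω s₁ (fun y => u y - U y) v = 0 := by
      rw [bl_comm Ω hsym₁]
      exact hv.2.2 _ (hu.1.sub hU) fun x hx => by rw [hu.2.1 x hx, sub_self]
    have b : bl Ω s₁ U (fun y => v y - W y) = 0 :=
      LR.weak Ω hO hb _ hs₁ hsym₁ U _ hU (hv.1.sub hW) hU0 fun x hx => by
        rw [hv.2.1 x hx, sub_self]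
    rw [bl_sub_left hb h1c hu.1 hU hv.1] at a
    rw [bl_sub_right hb h1c hU hv.1 hW] at b
    rw [sub_eq_zero.mp a, sub_eq_zero.mp b]
  have e2 : bl Ω s u' v' = bl Ω s U W := by
    have a : bl Ω s u' (fun y => v' y - W y) = 0 :=
      hu'.2.2 _ (hv'.1.sub hW) fun x hx => by rw [hv'.2.1 x hx, sub_self]
    have b : bl Ω s (fun y => u' y - U y) W = 0 := by
      rw [bl_comm Ω hsym]
      exact LR.weak Ω hO hb s hs hsym W _ hW (hu'.1.sub hU) hW0 fun x hx => by
        rw [hu'.2.1 x hx, sub_self]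
    rw [bl_sub_right hb hsc hu'.1 hv'.1 hW] at a
    rw [bl_sub_left hb hsc hu'.1 hU hW] at b
    rw [sub_eq_zero.mp a, sub_eq_zero.mp b]
  rw [bl_sub_mat hb hsc h1c hU hW, ← e1, ← e2, heq, sub_self]

end Vale.Agent.P088.H884
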